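import Mathlib

/-!
# P043: the discrete periodic tiling conjecture is monotone in the dimension

If a group `G` is a retract of a group `G'` and every finite tile of `G'` admits a periodic tiling,
then so does every finite tile of `G`.  In particular the set of dimensions `d` for which every
finite tile of `ℤ^d` admits a periodic tiling is an initial segment.
-/

namespace Vale.Agent.Results.P043.DimensionMonotone

/-- `A ⊕ F = G`: every `g` has a unique expression `g = a + f` with `a ∈ A`, `f ∈ F`. -/
def IsTiling {G : Type*} [AddCommGroup G] (A : Set G) (F : Finset G) : Prop :=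
  ∀ g : G, ∃! p : G × G, p.1 ∈ A ∧ p.2 ∈ F ∧ p.1 + p.2 = g

/-- `A + h = A` for every `h` in some subgroup of finite index. -/
def IsPeriodic {G : Type*} [AddCommGroup G] (A : Set G) : Prop :=
  ∃ H : AddSubgroup G, H.index ≠ 0 ∧ ∀ h ∈ H, ∀ a : G, a + h ∈ A ↔ a ∈ A

/-- the periodic tiling conjecture for the group `G`: every finite nonempty translational tile
admits a periodic tiling -/
def PTC (G : Type*) [AddCommGroup G] : Prop :=
  ∀ F : Finset G, F.Nonempty → (∃ A : Set G, IsTiling A F) →
    ∃ A : Set G, IsTiling A F ∧ IsPeriodic A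

theorem ptc_of_retract {G G' : Type*} [AddCommGroup G] [AddCommGroup G'] [DecidableEq G']
    (i : G →+ G') (r : G' →+ G) (hri : ∀ g, r (i g) = g) (h : PTC G') : PTC G := by
  have hinj : Function.Injective i := fun a b hab => by
    rw [← hri a, ← hri b, hab]
  intro F hF ⟨A, hA⟩
  -- lift the tiling
  have hlift : IsTiling (r ⁻¹' A) (F.image i) := by
    intro g'
    obtain ⟨⟨a, f⟩, ⟨ha, hf, haf⟩, huniq⟩ := hA (r g')
    simp only at ha hf haf
    refine ⟨(g' - i f, i f), ⟨?_, Finset.mem_image_of_mem i hf, by simp⟩, ?_⟩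
    · show r (g' - i f) ∈ A
      rw [map_sub, hri, ← haf]
      simpa using ha
    · rintro ⟨a', f'⟩ ⟨ha', hf', haf'⟩
      simp only at ha' hf' haf'
      obtain ⟨f0, hf0, rfl⟩ := Finset.mem_image.1 hf'
      have h1 : (r a', f0) = (a, f) := by
        apply huniq
        refine ⟨ha', hf0, ?_⟩
        show r a' + f0 = r g'
        rw [← haf', map_add, hri]
      have h2 : f0 = f := (Prod.ext_iff.1 h1).2
      subst h2
      have h3 : a' = g' - i f0 := by rw [← haf']; abel
      rw [h3]
  obtain ⟨B', hB', H', hH', hper⟩ := h (F.image i) (hF.image i) ⟨_, hlift⟩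
  refine ⟨i ⁻¹' B', ?_, H'.comap i, ?_, ?_⟩
  · intro g
    obtain ⟨⟨b', f'⟩, ⟨hb', hf', hbf'⟩, huniq⟩ := hB' (i g)
    simp only at hb' hf' hbf'
    obtain ⟨f, hf, rfl⟩ := Finset.mem_image.1 hf'
    have hb : b' = i (g - f) := by rw [map_sub, ← hbf']; abel
    refine ⟨(g - f, f), ⟨?_, hf, by simp⟩, ?_⟩
    · show i (g - f) ∈ B'
      rw [← hb]; exact hb'
    · rintro ⟨b1, f1⟩ ⟨hb1, hf1, hbf1⟩
      simp only at hb1 hf1 hbf1
      have h1 : (i b1, i f1) = (b', i f) := by
        apply huniq
        refine ⟨hb1, Finset.mem_image_of_mem i hf1, ?_⟩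
        show i b1 + i f1 = i g
        rw [← map_add, hbf1]
      have h2 : f1 = f := hinj (Prod.ext_iff.1 h1).2
      subst h2
      have h3 : b1 = g - f1 := by rw [← hbf1]; abel
      rw [h3]
  · rw [AddSubgroup.index_comap]
    exact fun h0 => hH' (AddSubgroup.index_eq_zero_of_relIndex_eq_zero h0)
  · intro x hx a
    have hx' : i x ∈ H' := hx
    show i (a + x) ∈ B' ↔ i a ∈ B'
    rw [map_add]
    exact hper (i x) hx' (i a)

/-- The set of dimensions in which the discrete periodic tiling conjecture holds is downward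
closed: if every finite tile of `ℤ^d'` admits a periodic tiling and `d ≤ d'`, then every finite
tile of `ℤ^d` admits a periodic tiling.  Equivalently a tile of `ℤ^d` without periodic tilings
yields such a tile in every higher dimension. -/
theorem result : ∀ d d' : ℕ, d ≤ d' → PTC (Fin d' → ℤ) → PTC (Fin d → ℤ) := by
  intro d d' hdd h
  classical
  refine ptc_of_retract
    ((Function.ExtendByZero.linearMap ℤ (Fin.castLE hdd)).toAddMonoidHom)
    ((LinearMap.funLeft ℤ ℤ (Fin.castLE hdd)).toAddMonoidHom) ?_ h
  intro g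
  funext j
  show Function.extend (Fin.castLE hdd) g 0 (Fin.castLE hdd j) = g j
  exact (Fin.castLE_injective hdd).extend_apply g 0 j

end Vale.Agent.Results.P043.DimensionMonotone
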