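import Mathlib

/-!
# P043: product tiles

A product `F₁ × F₂ ⊆ G₁ × G₂` tiles iff both factors tile, and it admits a periodic tiling iff both
factors do.  So a product tile is a counterexample to the periodic tiling conjecture iff one of its
factors is one.
-/

namespace Vale.Agent.Results.P043.ProductTiles

/-- `A ⊕ F = G`: every `g` has a unique expression `g = a + f` with `a ∈ A`, `f ∈ F`. -/
def IsTiling {G : Type*} [AddCommGroup G] (A : Set G) (F : Finset G) : Prop :=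
  ∀ g : G, ∃! p : G × G, p.1 ∈ A ∧ p.2 ∈ F ∧ p.1 + p.2 = g

/-- `A + h = A` for every `h` in some subgroup of finite index. -/
def IsPeriodic {G : Type*} [AddCommGroup G] (A : Set G) : Prop :=
  ∃ H : AddSubgroup G, H.index ≠ 0 ∧ ∀ h ∈ H, ∀ a : G, a + h ∈ A ↔ a ∈ A

variable {G₁ G₂ : Type*} [AddCommGroup G₁] [AddCommGroup G₂]

/-- the slice of a translation set at height `0`, first factor -/
def slice₁ (A : Set (G₁ × G₂)) (F₂ : Finset G₂) : Set G₁ := {a | ∃ f ∈ F₂, (a, -f) ∈ A}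

/-- the slice of a translation set at height `0`, second factor -/
def slice₂ (A : Set (G₁ × G₂)) (F₁ : Finset G₁) : Set G₂ := {a | ∃ f ∈ F₁, (-f, a) ∈ A}

lemma tiling_slice₁ {A : Set (G₁ × G₂)} {F₁ : Finset G₁} {F₂ : Finset G₂}
    (hA : IsTiling A (F₁ ×ˢ F₂)) : IsTiling (slice₁ A F₂) F₁ := by
  intro x
  obtain ⟨⟨⟨a1, a2⟩, ⟨f1, f2⟩⟩, ⟨ha, hf, haf⟩, huniq⟩ := hA (x, 0)
  simp only [Finset.mem_product, Prod.mk_add_mk, Prod.mk.injEq] at ha hf haf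
  have ha2 : a2 = -f2 := eq_neg_of_add_eq_zero_left haf.2
  refine ⟨(a1, f1), ⟨⟨f2, hf.2, ha2 ▸ ha⟩, hf.1, haf.1⟩, ?_⟩
  rintro ⟨b, g⟩ ⟨⟨g2, hg2, hb⟩, hg, hbg⟩
  simp only at hg hbg
  have h1 : (((b, -g2), (g, g2)) : (G₁ × G₂) × (G₁ × G₂)) = ((a1, a2), (f1, f2)) := by
    apply huniq
    refine ⟨hb, Finset.mem_product.2 ⟨hg, hg2⟩, ?_⟩
    simp [hbg]
  simp only [Prod.mk.injEq] at h1
  rw [h1.1.1, h1.2.1]

lemma tiling_slice₂ {A : Set (G₁ × G₂)} {F₁ : Finset G₁} {F₂ : Finset G₂}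
    (hA : IsTiling A (F₁ ×ˢ F₂)) : IsTiling (slice₂ A F₁) F₂ := by
  intro x
  obtain ⟨⟨⟨a1, a2⟩, ⟨f1, f2⟩⟩, ⟨ha, hf, haf⟩, huniq⟩ := hA (0, x)
  simp only [Finset.mem_product, Prod.mk_add_mk, Prod.mk.injEq] at ha hf haf
  have ha1 : a1 = -f1 := eq_neg_of_add_eq_zero_left haf.1
  refine ⟨(a2, f2), ⟨⟨f1, hf.1, ha1 ▸ ha⟩, hf.2, haf.2⟩, ?_⟩
  rintro ⟨b, g⟩ ⟨⟨g1, hg1, hb⟩, hg, hbg⟩
  simp only at hg hbg
  have h1 : (((-g1, b), (g1, g)) : (G₁ × G₂) × (G₁ × G₂)) = ((a1, a2), (f1, f2)) := by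
    apply huniq
    refine ⟨hb, Finset.mem_product.2 ⟨hg1, hg⟩, ?_⟩
    simp [hbg]
  simp only [Prod.mk.injEq] at h1
  rw [h1.1.2, h1.2.2]

lemma tiling_prod {A₁ : Set G₁} {A₂ : Set G₂} {F₁ : Finset G₁} {F₂ : Finset G₂}
    (h₁ : IsTiling A₁ F₁) (h₂ : IsTiling A₂ F₂) : IsTiling (A₁ ×ˢ A₂) (F₁ ×ˢ F₂) := by
  rintro ⟨x, y⟩
  obtain ⟨⟨a1, f1⟩, ⟨ha1, hf1, haf1⟩, hu1⟩ := h₁ x
  obtain ⟨⟨a2, f2⟩, ⟨ha2, hf2, haf2⟩, hu2⟩ := h₂ y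
  simp only at ha1 hf1 haf1 ha2 hf2 haf2
  refine ⟨((a1, a2), (f1, f2)), ⟨⟨ha1, ha2⟩, Finset.mem_product.2 ⟨hf1, hf2⟩, by
    simp [haf1, haf2]⟩, ?_⟩
  rintro ⟨⟨b1, b2⟩, ⟨g1, g2⟩⟩ ⟨hb, hg, hbg⟩
  simp only [Finset.mem_product, Prod.mk_add_mk, Prod.mk.injEq, Set.mem_prod] at hb hg hbg
  have e1 : (b1, g1) = (a1, f1) := hu1 (b1, g1) ⟨hb.1, hg.1, hbg.1⟩
  have e2 : (b2, g2) = (a2, f2) := hu2 (b2, g2) ⟨hb.2, hg.2, hbg.2⟩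
  simp only [Prod.mk.injEq] at e1 e2
  rw [e1.1, e1.2, e2.1, e2.2]

lemma periodic_prod {A₁ : Set G₁} {A₂ : Set G₂} (h₁ : IsPeriodic A₁) (h₂ : IsPeriodic A₂) :
    IsPeriodic (A₁ ×ˢ A₂) := by
  obtain ⟨H₁, hi₁, hp₁⟩ := h₁
  obtain ⟨H₂, hi₂, hp₂⟩ := h₂
  refine ⟨H₁.prod H₂, ?_, ?_⟩
  · rw [AddSubgroup.index_prod]
    exact mul_ne_zero hi₁ hi₂
  · rintro ⟨h1, h2⟩ hh ⟨a1, a2⟩
    have hh' : h1 ∈ H₁ ∧ h2 ∈ H₂ := AddSubgroup.mem_prod.1 hh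
    simp only [Prod.mk_add_mk, Set.mem_prod]
    rw [hp₁ h1 hh'.1 a1, hp₂ h2 hh'.2 a2]

lemma periodic_slice₁ {A : Set (G₁ × G₂)} (F₂ : Finset G₂) (h : IsPeriodic A) :
    IsPeriodic (slice₁ A F₂) := by
  obtain ⟨H, hi, hp⟩ := h
  refine ⟨H.comap (AddMonoidHom.inl G₁ G₂), ?_, ?_⟩
  · rw [AddSubgroup.index_comap]
    exact fun h0 => hi (AddSubgroup.index_eq_zero_of_relIndex_eq_zero h0)
  · intro x hx a
    have hx' : ((x, 0) : G₁ × G₂) ∈ H := hx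
    constructor
    · rintro ⟨f, hf, hm⟩
      refine ⟨f, hf, ?_⟩
      have := (hp (x, 0) hx' (a, -f)).1 (by simpa using hm)
      exact this
    · rintro ⟨f, hf, hm⟩
      refine ⟨f, hf, ?_⟩
      have := (hp (x, 0) hx' (a, -f)).2 hm
      simpa using this

lemma periodic_slice₂ {A : Set (G₁ × G₂)} (F₁ : Finset G₁) (h : IsPeriodic A) :
    IsPeriodic (slice₂ A F₁) := by
  obtain ⟨H, hi, hp⟩ := h
  refine ⟨H.comap (AddMonoidHom.inr G₁ G₂), ?_, ?_⟩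
  · rw [AddSubgroup.index_comap]
    exact fun h0 => hi (AddSubgroup.index_eq_zero_of_relIndex_eq_zero h0)
  · intro x hx a
    have hx' : ((0, x) : G₁ × G₂) ∈ H := hx
    constructor
    · rintro ⟨f, hf, hm⟩
      refine ⟨f, hf, ?_⟩
      have := (hp (0, x) hx' (-f, a)).1 (by simpa using hm)
      exact this
    · rintro ⟨f, hf, hm⟩
      refine ⟨f, hf, ?_⟩
      have := (hp (0, x) hx' (-f, a)).2 hm
      simpa using this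

/-- **Product tiles.**  For finite subsets `F₁ ⊆ G₁`, `F₂ ⊆ G₂` of abelian groups:
`F₁ × F₂` tiles `G₁ × G₂` iff `F₁` tiles `G₁` and `F₂` tiles `G₂`; and `F₁ × F₂` admits a periodic
tiling iff both factors do. -/
theorem result {G₁ G₂ : Type*} [AddCommGroup G₁] [AddCommGroup G₂]
    (F₁ : Finset G₁) (F₂ : Finset G₂) :
    ((∃ A : Set (G₁ × G₂), IsTiling A (F₁ ×ˢ F₂)) ↔
      (∃ A₁ : Set G₁, IsTiling A₁ F₁) ∧ (∃ A₂ : Set G₂, IsTiling A₂ F₂)) ∧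
    ((∃ A : Set (G₁ × G₂), IsTiling A (F₁ ×ˢ F₂) ∧ IsPeriodic A) ↔
      (∃ A₁ : Set G₁, IsTiling A₁ F₁ ∧ IsPeriodic A₁) ∧
      (∃ A₂ : Set G₂, IsTiling A₂ F₂ ∧ IsPeriodic A₂)) := by
  refine ⟨⟨?_, ?_⟩, ⟨?_, ?_⟩⟩
  · rintro ⟨A, hA⟩
    exact ⟨⟨_, tiling_slice₁ hA⟩, ⟨_, tiling_slice₂ hA⟩⟩
  · rintro ⟨⟨A₁, h₁⟩, ⟨A₂, h₂⟩⟩
    exact ⟨_, tiling_prod h₁ h₂⟩
  · rintro ⟨A, hA, hp⟩
    exact ⟨⟨_, tiling_slice₁ hA, periodic_slice₁ F₂ hp⟩, ⟨_, tiling_slice₂ hA, periodic_slice₂ F₁ hp⟩⟩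
  · rintro ⟨⟨A₁, h₁, p₁⟩, ⟨A₂, h₂, p₂⟩⟩
    exact ⟨_, tiling_prod h₁ h₂, periodic_prod p₁ p₂⟩

end Vale.Agent.Results.P043.ProductTiles
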