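import Vale.Agent.Results.P043.CodimOnePeriods
import Vale.Agent.Results.P043.DimensionMonotone
import Vale.Agent.Results.P043.ProductTiles

/-!
# P043: the three results CodimOnePeriods, DimensionMonotone and ProductTiles as one theorem
(all stated with the definitions `IsTiling`, `IsPeriodic`, `PTC` of `DimensionMonotone`)
-/

namespace Vale.Agent.Results.P043.A_Combined

open Vale.Agent.Results.P043.DimensionMonotone

theorem result.{u, v, w} :
    (∀ (G : Type u) [AddCommGroup G] (Λ : AddSubgroup G) (w : G),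
      (Λ ⊔ AddSubgroup.zmultiples w).index ≠ 0 →
      ∀ (F : Finset G) (A : Set G), IsTiling A F → (∀ l ∈ Λ, ∀ x : G, x + l ∈ A ↔ x ∈ A) →
        ∃ B : Set G, IsTiling B F ∧ IsPeriodic B) ∧
    (∀ d d' : ℕ, d ≤ d' → PTC (Fin d' → ℤ) → PTC (Fin d → ℤ)) ∧
    (∀ (G₁ : Type v) (G₂ : Type w) [AddCommGroup G₁] [AddCommGroup G₂]
      (F₁ : Finset G₁) (F₂ : Finset G₂),
      ((∃ A : Set (G₁ × G₂), IsTiling A (F₁ ×ˢ F₂)) ↔
        (∃ A₁ : Set G₁, IsTiling A₁ F₁) ∧ (∃ A₂ : Set G₂, IsTiling A₂ F₂)) ∧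
      ((∃ A : Set (G₁ × G₂), IsTiling A (F₁ ×ˢ F₂) ∧ IsPeriodic A) ↔
        (∃ A₁ : Set G₁, IsTiling A₁ F₁ ∧ IsPeriodic A₁) ∧
        (∃ A₂ : Set G₂, IsTiling A₂ F₂ ∧ IsPeriodic A₂))) :=
  ⟨fun _ _ Λ w hfin F A hA hinv =>
      Vale.Agent.Results.P043.CodimOnePeriods.result Λ w hfin F A hA hinv,
    Vale.Agent.Results.P043.DimensionMonotone.result,
    fun _ _ _ _ F₁ F₂ => Vale.Agent.Results.P043.ProductTiles.result F₁ F₂⟩

end Vale.Agent.Results.P043.A_Combined
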