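import Mathlib

/-!
# P043: a tiling with a corank-one group of periods can be made periodic
-/

namespace Vale.Agent.Results.P043.CodimOnePeriods

/-- `A ⊕ F = G`: every `g` has a unique expression `g = a + f` with `a ∈ A`, `f ∈ F`. -/
def IsTiling {G : Type*} [AddCommGroup G] (A : Set G) (F : Finset G) : Prop :=
  ∀ g : G, ∃! p : G × G, p.1 ∈ A ∧ p.2 ∈ F ∧ p.1 + p.2 = g

/-- `A + h = A` for every `h` in some subgroup of finite index. -/
def IsPeriodic {G : Type*} [AddCommGroup G] (A : Set G) : Prop :=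
  ∃ H : AddSubgroup G, H.index ≠ 0 ∧ ∀ h ∈ H, ∀ a : G, a + h ∈ A ↔ a ∈ A

lemma isTiling_iff {G : Type*} [AddCommGroup G] (A : Set G) (F : Finset G) :
    IsTiling A F ↔ ∀ g : G, ∃! f : G, f ∈ F ∧ g - f ∈ A := by
  constructor
  · intro h g
    obtain ⟨⟨a, f⟩, ⟨ha, hf, haf⟩, hu⟩ := h g
    simp only at ha hf haf
    refine ⟨f, ⟨hf, ?_⟩, ?_⟩
    · rw [← haf]; simpa using ha
    · rintro f' ⟨hf', ha'⟩
      have := hu (g - f', f') ⟨ha', hf', by simp⟩
      exact (Prod.ext_iff.1 this).2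
  · intro h g
    obtain ⟨f, ⟨hf, ha⟩, hu⟩ := h g
    refine ⟨(g - f, f), ⟨ha, hf, by simp⟩, ?_⟩
    rintro ⟨a', f'⟩ ⟨ha', hf', haf'⟩
    simp only at ha' hf' haf'
    have h1 : f' = f := hu f' ⟨hf', by rw [← haf']; simpa using ha'⟩
    subst h1
    have h2 : a' = g - f' := by rw [← haf']; abel
    rw [h2]

variable {G : Type*} [AddCommGroup G]

/-- gluing along a height function -/
lemma glue (w : G) (h : G → ℤ) (hw : ∀ x m, h (x + m • w) = h x + m) (F : Finset G) (L : ℤ)
    (hL : ∀ x, ∀ f ∈ F, h x - L < h (x - f) ∧ h (x - f) < h x + L)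
    (A : Set G) (hA : IsTiling A F) (n1 P : ℤ) (hL0 : 0 < L) (hPL : 2 * L ≤ P)
    (window : ∀ x, n1 - L ≤ h x → h x < n1 + L → (x ∈ A ↔ x + P • w ∈ A)) :
    IsTiling {x | x - (P * ((h x - n1) / P)) • w ∈ A} F := by
  have hP0 : 0 < P := by omega
  rw [isTiling_iff] at hA ⊢
  intro g
  set s : ℤ := P * ((h g - n1) / P) with hs
  set g' : G := g - s • w with hg'
  have hhg' : h g' = n1 + (h g - n1) % P := by
    have h1 : h g' = h g + (-s) := by
      rw [hg', sub_eq_add_neg, ← neg_smul]; exact hw g (-s)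
    have h2 := Int.emod_add_mul_ediv (h g - n1) P
    rw [h1, hs]; omega
  have hr0 : 0 ≤ (h g - n1) % P := Int.emod_nonneg _ (by omega)
  have hr1 : (h g - n1) % P < P := Int.emod_lt_of_pos _ hP0
  refine (existsUnique_congr (fun f => and_congr_right (fun hf => ?_))).2 (hA g')
  obtain ⟨hf1, hf2⟩ := hL g' f hf
  set u : ℤ := h (g' - f) - n1 with hu
  have hy : g - f = (g' - f) + s • w := by rw [hg']; abel
  have hhy : h (g - f) = h (g' - f) + s := by rw [hy]; exact hw _ _
  have hq : (h (g - f) - n1) / P = u / P + (h g - n1) / P := by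
    have : h (g - f) - n1 = u + P * ((h g - n1) / P) := by rw [hhy, hu, hs]; ring
    rw [this, Int.add_mul_ediv_left _ _ (by omega)]
  show g - f - (P * ((h (g - f) - n1) / P)) • w ∈ A ↔ g' - f ∈ A
  have hshift : g - f - (P * ((h (g - f) - n1) / P)) • w = (g' - f) - (P * (u / P)) • w := by
    rw [hq, hy, mul_add, add_smul, ← hs]; abel
  rw [hshift]
  rcases lt_or_ge u 0 with hneg | hnn
  · have h1 : u / P = -1 := by
      rw [Int.ediv_eq_iff_of_pos hP0]; omega
    rw [h1]
    have h2 := window (g' - f) (by omega) (by omega)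
    have e : g' - f - (P * -1) • w = g' - f + P • w := by
      rw [mul_neg_one, neg_smul]; abel
    rw [e]; exact h2.symm
  · rcases lt_or_ge u P with hlt | hge
    · have h1 : u / P = 0 := Int.ediv_eq_zero_of_lt hnn hlt
      rw [h1]; simp
    · have h1 : u / P = 1 := by
        rw [Int.ediv_eq_iff_of_pos hP0]; omega
      rw [h1, mul_one]
      have hx : h (g' - f - P • w) = h (g' - f) + (-P) := by
        rw [sub_eq_add_neg (g' - f), ← neg_smul]; exact hw _ _
      have h2 := window (g' - f - P • w) (by omega) (by omega)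
      rw [sub_add_cancel] at h2
      exact h2

lemma decomp (Λ : AddSubgroup G) (w : G) (x : G) :
    ∃ m : ℤ, ∃ l ∈ Λ, x = (x : G ⧸ (Λ ⊔ AddSubgroup.zmultiples w)).out + l + m • w := by
  obtain ⟨⟨h, hh⟩, hout⟩ := QuotientAddGroup.mk_out_eq_add (Λ ⊔ AddSubgroup.zmultiples w) x
  simp only at hout
  obtain ⟨l, hl, z, hz, hlz⟩ := AddSubgroup.mem_sup.1 hh
  obtain ⟨m, hm⟩ := AddSubgroup.mem_zmultiples_iff.1 hz
  refine ⟨-m, -l, Λ.neg_mem hl, ?_⟩
  rw [hout, ← hlz, ← hm, neg_smul]
  abel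

lemma index_sup_ne_zero (Λ : AddSubgroup G) (w : G) (P : ℤ) (hP : 0 < P)
    (h : (Λ ⊔ AddSubgroup.zmultiples w).index ≠ 0) :
    (Λ ⊔ AddSubgroup.zmultiples (P • w)).index ≠ 0 := by
  have : (Λ ⊔ AddSubgroup.zmultiples w).FiniteIndex := ⟨h⟩
  have : Finite (G ⧸ (Λ ⊔ AddSubgroup.zmultiples w)) := AddSubgroup.finite_quotient_of_finiteIndex
  let φ : (G ⧸ (Λ ⊔ AddSubgroup.zmultiples w)) × ↥(Finset.Ico 0 P) →
      G ⧸ (Λ ⊔ AddSubgroup.zmultiples (P • w)) := fun p => ((p.1.out + (p.2 : ℤ) • w : G) : G ⧸ _)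
  have hsurj : Function.Surjective φ := by
    intro y
    obtain ⟨x, rfl⟩ := QuotientAddGroup.mk_surjective y
    obtain ⟨m, l, hl, hx⟩ := decomp Λ w x
    refine ⟨((x : G ⧸ (Λ ⊔ AddSubgroup.zmultiples w)), ⟨m % P, Finset.mem_Ico.2
      ⟨Int.emod_nonneg _ (by omega), Int.emod_lt_of_pos _ hP⟩⟩), ?_⟩
    show (((x : G ⧸ (Λ ⊔ AddSubgroup.zmultiples w)).out + (m % P) • w : G) :
      G ⧸ (Λ ⊔ AddSubgroup.zmultiples (P • w))) = (x : G ⧸ (Λ ⊔ AddSubgroup.zmultiples (P • w)))
    rw [QuotientAddGroup.eq]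
    generalize (x : G ⧸ (Λ ⊔ AddSubgroup.zmultiples w)).out = r at hx ⊢
    have e : -(r + (m % P) • w) + x = l + (m / P) • (P • w) := by
      have hm : m • w = (m % P) • w + (m / P) • (P • w) := by
        rw [smul_smul, ← add_smul]
        congr 1
        have := Int.emod_add_mul_ediv m P
        rw [mul_comm (m / P) P]; omega
      rw [hx, hm]
      abel
    rw [e]
    exact AddSubgroup.add_mem _ (AddSubgroup.mem_sup_left hl)
      (AddSubgroup.mem_sup_right (AddSubgroup.zsmul_mem _ (AddSubgroup.mem_zmultiples _) _))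
  have : Finite (G ⧸ (Λ ⊔ AddSubgroup.zmultiples (P • w))) := Finite.of_surjective φ hsurj
  exact AddSubgroup.index_ne_zero_of_finite

/-- **A corank-one group of periods suffices.**  Let `G` be an abelian group, `Λ` a subgroup and
`w` an element such that `Λ` and `w` together generate a subgroup of finite index (for `G = ℤ^d`:
`Λ` is any subgroup of rank at least `d - 1`).  If a finite set `F` has a tiling `A ⊕ F = G` with
`A + l = A` for all `l ∈ Λ`, then `F` has a periodic tiling. -/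
theorem result {G : Type*} [AddCommGroup G] (Λ : AddSubgroup G) (w : G)
    (hfin : (Λ ⊔ AddSubgroup.zmultiples w).index ≠ 0)
    (F : Finset G) (A : Set G) (hA : IsTiling A F)
    (hinv : ∀ l ∈ Λ, ∀ x : G, x + l ∈ A ↔ x ∈ A) :
    ∃ B : Set G, IsTiling B F ∧ IsPeriodic B := by
  classical
  by_cases htor : ∃ m : ℤ, m ≠ 0 ∧ m • w ∈ Λ
  · obtain ⟨m, hm0, hm⟩ := htor
    have hm' : (|m|) • w ∈ Λ := by
      rcases abs_choice m with h | h <;> rw [h]
      · exact hm
      · rw [neg_smul]; exact Λ.neg_mem hm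
    have h1 := index_sup_ne_zero Λ w |m| (abs_pos.2 hm0) hfin
    have h2 : Λ ⊔ AddSubgroup.zmultiples (|m| • w) = Λ :=
      sup_eq_left.2 (AddSubgroup.zmultiples_le_of_mem hm')
    rw [h2] at h1
    exact ⟨A, hA, Λ, h1, hinv⟩
  · simp only [not_exists, not_and] at htor
    have : (Λ ⊔ AddSubgroup.zmultiples w).FiniteIndex := ⟨hfin⟩
    have : Finite (G ⧸ (Λ ⊔ AddSubgroup.zmultiples w)) :=
      AddSubgroup.finite_quotient_of_finiteIndex
    let _ : Fintype (G ⧸ (Λ ⊔ AddSubgroup.zmultiples w)) := Fintype.ofFinite _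
    choose h lam hlam hdec using decomp Λ w
    have huniq : ∀ (r l l' : G) (m m' : ℤ), l ∈ Λ → l' ∈ Λ →
        r + l + m • w = r + l' + m' • w → m = m' := by
      intro r l l' m m' hl hl' he
      by_contra hne
      apply htor (m - m') (sub_ne_zero.2 hne)
      have h1 : l + m • w = l' + m' • w := by
        rw [add_assoc, add_assoc] at he; exact add_left_cancel he
      have h2 : (m - m') • w = l' - l := by
        rw [sub_smul, sub_eq_sub_iff_add_eq_add, add_comm, h1, add_comm]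
      rw [h2]; exact Λ.sub_mem hl' hl
    have hcoset : ∀ (x l : G) (m : ℤ), l ∈ Λ →
        ((x + l + m • w : G) : G ⧸ (Λ ⊔ AddSubgroup.zmultiples w)) = (x : G ⧸ _) := by
      intro x l m hl
      rw [QuotientAddGroup.eq]
      have e : -(x + l + m • w) + x = -(l + m • w) := by abel
      rw [e]
      exact AddSubgroup.neg_mem _ (AddSubgroup.add_mem _ (AddSubgroup.mem_sup_left hl)
        (AddSubgroup.mem_sup_right (AddSubgroup.zsmul_mem _ (AddSubgroup.mem_zmultiples _) _)))
    have hshift : ∀ (x l : G) (m : ℤ), l ∈ Λ → h (x + l + m • w) = h x + m := by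
      intro x l m hl
      have h1 := hdec (x + l + m • w)
      rw [hcoset x l m hl] at h1
      have h3 : x + l + m • w = (x : G ⧸ (Λ ⊔ AddSubgroup.zmultiples w)).out + (lam x + l) +
          (h x + m) • w := by
        have h2 := hdec x
        calc x + l + m • w
            = ((x : G ⧸ (Λ ⊔ AddSubgroup.zmultiples w)).out + lam x + h x • w) + l + m • w := by
              rw [← h2]
          _ = _ := by rw [add_smul]; abel
      exact (huniq _ (lam x + l) (lam (x + l + m • w)) (h x + m) (h (x + l + m • w))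
        (Λ.add_mem (hlam x) hl) (hlam _) (h3.symm.trans h1)).symm
    have hw : ∀ x m, h (x + m • w) = h x + m := by
      intro x m
      have := hshift x 0 m Λ.zero_mem
      simpa using this
    -- bounded jumps
    set L : ℤ := 1 + ∑ q : G ⧸ (Λ ⊔ AddSubgroup.zmultiples w), ∑ f ∈ F, |h (q.out - f)| with hLdef
    have hL0 : 0 < L := by
      have : 0 ≤ ∑ q : G ⧸ (Λ ⊔ AddSubgroup.zmultiples w), ∑ f ∈ F, |h (q.out - f)| :=
        Finset.sum_nonneg (fun q _ => Finset.sum_nonneg (fun f _ => abs_nonneg _))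
      omega
    have hL : ∀ x, ∀ f ∈ F, h x - L < h (x - f) ∧ h (x - f) < h x + L := by
      intro x f hf
      have h1 : h (x - f) = h ((x : G ⧸ (Λ ⊔ AddSubgroup.zmultiples w)).out - f) + h x := by
        have h2 := hdec x
        have h3 : x - f = ((x : G ⧸ (Λ ⊔ AddSubgroup.zmultiples w)).out - f) + lam x + h x • w := by
          calc x - f = ((x : G ⧸ (Λ ⊔ AddSubgroup.zmultiples w)).out + lam x + h x • w) - f := by
                rw [← h2]
            _ = _ := by abel
        rw [h3]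
        exact hshift _ _ _ (hlam x)
      have h4 : |h ((x : G ⧸ (Λ ⊔ AddSubgroup.zmultiples w)).out - f)| ≤
          ∑ q : G ⧸ (Λ ⊔ AddSubgroup.zmultiples w), ∑ f ∈ F, |h (q.out - f)| := by
        calc |h ((x : G ⧸ (Λ ⊔ AddSubgroup.zmultiples w)).out - f)|
            ≤ ∑ f ∈ F, |h ((x : G ⧸ (Λ ⊔ AddSubgroup.zmultiples w)).out - f)| :=
              Finset.single_le_sum
                (f := fun f => |h ((x : G ⧸ (Λ ⊔ AddSubgroup.zmultiples w)).out - f)|)
                (fun f _ => abs_nonneg _) hf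
          _ ≤ _ := Finset.single_le_sum
                (f := fun q : G ⧸ (Λ ⊔ AddSubgroup.zmultiples w) => ∑ f ∈ F, |h (q.out - f)|)
                (fun q _ => Finset.sum_nonneg (fun f _ => abs_nonneg _)) (Finset.mem_univ _)
      have h5 := abs_le.1 (le_refl |h ((x : G ⧸ (Λ ⊔ AddSubgroup.zmultiples w)).out - f)|)
      constructor <;> omega
    -- normal form of membership in `A`
    have hnf : ∀ x, x ∈ A ↔ (x : G ⧸ (Λ ⊔ AddSubgroup.zmultiples w)).out + h x • w ∈ A := by
      intro x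
      have h2 := hdec x
      have h3 : x = ((x : G ⧸ (Λ ⊔ AddSubgroup.zmultiples w)).out + h x • w) + lam x := by
        calc x = (x : G ⧸ (Λ ⊔ AddSubgroup.zmultiples w)).out + lam x + h x • w := h2
          _ = _ := by abel
      have h4 := hinv (lam x) (hlam x) ((x : G ⧸ (Λ ⊔ AddSubgroup.zmultiples w)).out + h x • w)
      rw [← h3] at h4
      exact h4
    -- window states
    let σ : ℕ → Set ((G ⧸ (Λ ⊔ AddSubgroup.zmultiples w)) × ↥(Finset.Ico (-L) L)) := fun j =>
      {p | p.1.out + (2 * L * (j : ℤ) + (p.2 : ℤ)) • w ∈ A}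
    obtain ⟨j1, j2, hne, hσ⟩ := Finite.exists_ne_map_eq_of_infinite σ
    wlog hlt : j1 < j2 generalizing j1 j2
    · exact this j2 j1 hne.symm hσ.symm (by omega)
    set n1 : ℤ := 2 * L * (j1 : ℤ) with hn1
    set n2 : ℤ := 2 * L * (j2 : ℤ) with hn2
    set P : ℤ := n2 - n1 with hP
    have hPL : 2 * L ≤ P := by
      have h1 : (j1 : ℤ) + 1 ≤ j2 := by exact_mod_cast hlt
      have : P = 2 * L * ((j2 : ℤ) - j1) := by rw [hP, hn1, hn2]; ring
      rw [this]
      nlinarith
    have hP0 : 0 < P := by omega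
    have window : ∀ x, n1 - L ≤ h x → h x < n1 + L → (x ∈ A ↔ x + P • w ∈ A) := by
      intro x hx1 hx2
      have hmem : ∀ j : ℕ, (((x : G ⧸ (Λ ⊔ AddSubgroup.zmultiples w)),
          (⟨h x - n1, Finset.mem_Ico.2 ⟨by omega, by omega⟩⟩ : ↥(Finset.Ico (-L) L))) ∈ σ j) ↔
          (x : G ⧸ (Λ ⊔ AddSubgroup.zmultiples w)).out + (2 * L * (j : ℤ) + (h x - n1)) • w ∈ A :=
        fun j => Iff.rfl
      have e1 : 2 * L * (j1 : ℤ) + (h x - n1) = h x := by rw [hn1]; ring
      have e2 : 2 * L * (j2 : ℤ) + (h x - n1) = h x + P := by rw [hP, hn2]; ring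
      have hc : ((x + P • w : G) : G ⧸ (Λ ⊔ AddSubgroup.zmultiples w)) = (x : G ⧸ _) := by
        have := hcoset x 0 P Λ.zero_mem
        simpa using this
      rw [hnf x, hnf (x + P • w), hc, hw, ← e1, ← hmem j1, hσ, hmem j2, e2, e1]
    refine ⟨{x | x - (P * ((h x - n1) / P)) • w ∈ A},
      glue w h hw F L hL A hA n1 P hL0 hPL window,
      Λ ⊔ AddSubgroup.zmultiples (P • w), index_sup_ne_zero Λ w P hP0 hfin, ?_⟩
    intro hh hhmem x
    obtain ⟨l, hl, z, hz, hlz⟩ := AddSubgroup.mem_sup.1 hhmem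
    obtain ⟨c, hc⟩ := AddSubgroup.mem_zmultiples_iff.1 hz
    have e0 : x + hh = x + l + (c * P) • w := by
      rw [← hlz, ← hc, smul_smul]; abel
    show x + hh - (P * ((h (x + hh) - n1) / P)) • w ∈ A ↔ x - (P * ((h x - n1) / P)) • w ∈ A
    have e1 : h (x + hh) = h x + c * P := by rw [e0]; exact hshift x l (c * P) hl
    have e2 : (h (x + hh) - n1) / P = (h x - n1) / P + c := by
      have : h (x + hh) - n1 = (h x - n1) + c * P := by rw [e1]; ring
      rw [this, Int.add_mul_ediv_right _ _ (by omega)]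
    have e3 : x + hh - (P * ((h (x + hh) - n1) / P)) • w =
        (x - (P * ((h x - n1) / P)) • w) + l := by
      rw [e2, e0, mul_add, add_smul, mul_comm P c]; abel
    rw [e3]
    exact hinv l hl _

end Vale.Agent.Results.P043.CodimOnePeriods
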